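import Vale.Agent.P069.Defs
import Vale.Agent.P069.Amuc
import Vale.Agent.P069.Refl

namespace Vale.Agent.Results.P069.ReflexiveAMUCNotAUC

open Vale.Agent.P069

/-- There is a real infinite-dimensional reflexive Banach space with an equivalent AMUC norm
and no equivalent AUC norm. -/
theorem result :
    ∃ (X : Type) (_ : NormedAddCommGroup X) (_ : NormedSpace ℝ X) (_ : CompleteSpace X),
      ¬ FiniteDimensional ℝ X ∧ IsReflexiveSpace X ∧
      (∃ N : Seminorm ℝ X, IsEquivNorm N ∧ IsAMUC N) ∧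
      ¬ ∃ N : Seminorm ℝ X, IsEquivNorm N ∧ IsAUC N := by
  refine ⟨StrongDual ℝ JT, inferInstance, inferInstance, inferInstance,
    not_finiteDimensional_dualJT, reflexive_dualJT, ⟨normSeminorm ℝ (StrongDual ℝ JT), ?_,
    amuc_dualJT⟩, no_equiv_AUC_dualJT⟩
  exact ⟨1, 1, one_pos, one_pos, fun x => by simp⟩

end Vale.Agent.Results.P069.ReflexiveAMUCNotAUC
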