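import Vale.Agent.Results.P069.ReflexiveAMUCNotAUC

namespace Vale.Agent.Results.P069.S_NotEveryReflexiveAMUC

open Vale.Agent.P069

/-- The assertion of Q1 is false: it is not true that every real infinite-dimensional reflexive
Banach space with an equivalent AMUC norm has an equivalent AUC norm. -/
theorem result :
    ¬ ∀ (X : Type) [NormedAddCommGroup X] [NormedSpace ℝ X] [CompleteSpace X],
      ¬ FiniteDimensional ℝ X → IsReflexiveSpace X →
      (∃ N : Seminorm ℝ X, IsEquivNorm N ∧ IsAMUC N) →
      ∃ N : Seminorm ℝ X, IsEquivNorm N ∧ IsAUC N := by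
  intro h
  obtain ⟨X, i1, i2, i3, h1, h2, h3, h4⟩ := Vale.Agent.Results.P069.ReflexiveAMUCNotAUC.result
  exact h4 (h X h1 h2 h3)

end Vale.Agent.Results.P069.S_NotEveryReflexiveAMUC
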